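import Vale.Agent.Lib.P068.Deficiency
import Vale.Agent.Lib.P068.Extend
import Vale.Agent.Lib.P068.Uniform

namespace Vale.Agent.Results.P068.FinitePerturbationAndNewCases

open Vale.Agent.Lib.P068 Matroid

universe u v

/-- Three results on the infinite matroid intersection and packing/covering conjectures, in one
statement (ground sets and index sets of any cardinality).

(A) Finite perturbations do not affect the intersection property of a pair `(M, N)` of matroids
on a common ground set.
(A1) A common independent set `A ∪ B` that solves the intersection problem up to finite sets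
`G_M`, `G_N` can be repaired.
(A2) If `(M ↾ E₀, N ↾ E₀)` satisfies intersection and the complement of `E₀` has finite rank in
`N` or in `M`, then `(M, N)` satisfies intersection.
(A3) If `(M ／ E₁, N ／ E₁)` satisfies intersection and `E₁` has finite rank in `N✶` or in `M✶`,
then `(M, N)` satisfies intersection.
(A4) Deleting a finite set from both matroids, or contracting a finite set in both, does not
change whether the pair satisfies intersection.

(B) Finite-type extension.
(B1) If `F` has finite rank and `(M ↾ E(N₀), N₀)` satisfies intersection, then so does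
`(M, N₀ ⊕ F)`. (B2) If `F` has finite corank and `(M ／ E(F), N₀)` satisfies intersection, then
so does `(M, N₀ ⊕ F)`. (B3) Every matroid `M` paired with `(U ⊕ R) ⊕ C`, where `U` is uniform,
`R` has finite rank and `C` has finite corank, satisfies intersection.

(C) Uniform members of a family of matroids on a common ground set `E` never obstruct
packing/covering.
(C1) If every member whose index lies outside `A` is uniform and the subfamily indexed by `A`
has a packing/covering partition, then so does the whole family.
(C2) Every family with at most one non-uniform member has a packing/covering partition. -/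
theorem result :
    (∀ (α : Type u) (M N : Matroid α), M.E = N.E →
      (∀ A B GM GN : Set α, Disjoint A B → M.Indep (A ∪ B) → N.Indep (A ∪ B) →
          GM.Finite → GN.Finite → M.E ⊆ M.closure (A ∪ GM) ∪ N.closure (B ∪ GN) →
          SatisfiesIntersection M N) ∧
      (∀ E₀ : Set α, E₀ ⊆ M.E →
          (N ↾ (M.E \ E₀)).RankFinite ∨ (M ↾ (M.E \ E₀)).RankFinite →
          SatisfiesIntersection (M ↾ E₀) (N ↾ E₀) → SatisfiesIntersection M N) ∧
      (∀ E₁ : Set α, E₁ ⊆ M.E → (N✶ ↾ E₁).RankFinite ∨ (M✶ ↾ E₁).RankFinite →
          SatisfiesIntersection (M ／ E₁) (N ／ E₁) → SatisfiesIntersection M N) ∧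
      (∀ F : Set α, F.Finite →
          (SatisfiesIntersection (M ＼ F) (N ＼ F) ↔ SatisfiesIntersection M N) ∧
          (SatisfiesIntersection (M ／ F) (N ／ F) ↔ SatisfiesIntersection M N))) ∧
    (∀ (α : Type u),
      (∀ (M N₀ F : Matroid α) (hd : Disjoint N₀.E F.E), M.E = N₀.E ∪ F.E → F.RankFinite →
        SatisfiesIntersection (M ↾ N₀.E) N₀ → SatisfiesIntersection M (N₀.disjointSum F hd)) ∧
      (∀ (M N₀ F : Matroid α) (hd : Disjoint N₀.E F.E), M.E = N₀.E ∪ F.E → F✶.RankFinite →
        SatisfiesIntersection (M ／ F.E) N₀ → SatisfiesIntersection M (N₀.disjointSum F hd)) ∧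
      (∀ (M U R C : Matroid α) (h1 : Disjoint U.E R.E)
        (h2 : Disjoint (U.disjointSum R h1).E C.E),
        M.E = (U.disjointSum R h1).E ∪ C.E → IsUniform U → R.RankFinite → C✶.RankFinite →
        SatisfiesIntersection M ((U.disjointSum R h1).disjointSum C h2))) ∧
    (∀ (ι : Type v) (α : Type u) (E : Set α) (M : ι → Matroid α), (∀ i, (M i).E = E) →
      (∀ A : Set ι, (∀ i, i ∉ A → IsUniform (M i)) →
        HasPackingCovering E (fun a : A => M a) → HasPackingCovering E M) ∧
      ((∀ i j, ¬ IsUniform (M i) → ¬ IsUniform (M j) → i = j) → HasPackingCovering E M)) := by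
  refine ⟨?_, ?_, ?_⟩
  · intro α M N hE
    refine ⟨?_, ?_, ?_, ?_⟩
    · intro A B GM GN hd hMA hNA hGM hGN hcov
      exact intersection_of_almost_solution M N hE hd hMA hNA hGM hGN hcov
    · intro E₀ hE₀ hfin h
      exact intersection_of_restrict_rankFinite' M N hE hE₀ hfin h
    · intro E₁ hE₁ hfin h
      exact intersection_of_contract_rankFinite' M N hE hE₁ hfin h
    · intro F hF
      exact ⟨satisfiesIntersection_delete_finite_iff M N hE hF,
        satisfiesIntersection_contract_finite_iff M N hE hF⟩
  · intro α
    refine ⟨?_, ?_, ?_⟩
    · intro M N₀ F hd hE hF h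
      exact intersection_sum_rankFinite M N₀ F hd hE h
    · intro M N₀ F hd hE hF h
      exact intersection_sum_dual_rankFinite M N₀ F hd hE h
    · intro M U R C h1 h2 hE hU hR hC
      exact intersection_uniform_sum_finite M U R C h1 h2 hE hU
  · intro ι α E M hE
    exact ⟨fun A hU hA => uniform_extension E M hE A hU hA, fun h => one_nonuniform E M hE h⟩

end Vale.Agent.Results.P068.FinitePerturbationAndNewCases
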