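import Vale.Agent.Lib.P068.Extend

namespace Vale.Agent.Results.P068.FiniteTypeExtension

open Vale.Agent.Lib.P068 Matroid

/-- Finite-type extension for the matroid intersection property (ground sets of any cardinality).
(1) If `F` has finite rank and `(M ↾ E(N₀), N₀)` satisfies intersection, then so does
`(M, N₀ ⊕ F)`. (2) If `F` has finite corank and `(M ／ E(F), N₀)` satisfies intersection, then so
does `(M, N₀ ⊕ F)`. (3) Every matroid `M` paired with `(U ⊕ R) ⊕ C`, where `U` is uniform, `R`
has finite rank and `C` has finite corank, satisfies intersection. -/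
theorem result {α : Type*} :
    (∀ (M N₀ F : Matroid α) (hd : Disjoint N₀.E F.E), M.E = N₀.E ∪ F.E → F.RankFinite →
      SatisfiesIntersection (M ↾ N₀.E) N₀ → SatisfiesIntersection M (N₀.disjointSum F hd)) ∧
    (∀ (M N₀ F : Matroid α) (hd : Disjoint N₀.E F.E), M.E = N₀.E ∪ F.E → F✶.RankFinite →
      SatisfiesIntersection (M ／ F.E) N₀ → SatisfiesIntersection M (N₀.disjointSum F hd)) ∧
    (∀ (M U R C : Matroid α) (h1 : Disjoint U.E R.E) (h2 : Disjoint (U.disjointSum R h1).E C.E),
      M.E = (U.disjointSum R h1).E ∪ C.E → IsUniform U → R.RankFinite → C✶.RankFinite →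
      SatisfiesIntersection M ((U.disjointSum R h1).disjointSum C h2)) := by
  refine ⟨?_, ?_, ?_⟩
  · intro M N₀ F hd hE hF h
    exact intersection_sum_rankFinite M N₀ F hd hE h
  · intro M N₀ F hd hE hF h
    exact intersection_sum_dual_rankFinite M N₀ F hd hE h
  · intro M U R C h1 h2 hE hU hR hC
    exact intersection_uniform_sum_finite M U R C h1 h2 hE hU

end Vale.Agent.Results.P068.FiniteTypeExtension
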