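import Vale.Agent.Lib.P068.FinDist

namespace Vale.Agent.Results.P068.NearlyFinitary

open Vale.Agent.Lib.P068 Matroid

/-- The intersection property survives every finite-defect change of either matroid
(matroids `M`, `N`, `M'`, `N'` on one common ground set of any cardinality).
(1) If `M'` has finite defect over `M`, `N'` has finite defect over `N` and `(M', N')` satisfies
intersection, then `(M, N)` satisfies intersection.
(2) The same conclusion if each of `M`, `N` is left unchanged, or is nearly finitary and
replaced by its finitarization, or is nearly cofinitary and replaced by its cofinitarization.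
(3) Every matroid has finite defect over itself, and every matroid has a finitarization. -/
theorem result {α : Type*} (M N M' N' : Matroid α) (hE : M.E = N.E) (hM : M'.E = M.E)
    (hN : N'.E = N.E) :
    (FiniteDefect M' M → FiniteDefect N' N → SatisfiesIntersection M' N' →
      SatisfiesIntersection M N) ∧
    ((M' = M ∨ NearlyFinitaryVia M M' ∨ NearlyFinitaryVia M✶ M'✶) →
      (N' = N ∨ NearlyFinitaryVia N N' ∨ NearlyFinitaryVia N✶ N'✶) →
      SatisfiesIntersection M' N' → SatisfiesIntersection M N) ∧
    (FiniteDefect M M ∧ ∃ Mf : Matroid α, Mf.E = M.E ∧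
      ∀ I : Set α, Mf.Indep I ↔ ∀ J : Set α, J ⊆ I → J.Finite → M.Indep J) :=
  ⟨fun h₁ h₂ h => h.of_finiteDefect hE hM hN h₁ h₂,
    fun h₁ h₂ h => h.of_nearly hE hM hN h₁ h₂,
    finiteDefect_refl M, exists_finitarization M⟩

end Vale.Agent.Results.P068.NearlyFinitary
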