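import Vale.Agent.Lib.P068.Uniform

namespace Vale.Agent.Results.P068.UniformMembers

open Vale.Agent.Lib.P068

/-- Uniform members of a family of matroids on a common ground set `E` (index set and ground set
arbitrary) never obstruct packing/covering.
(1) If every member whose index lies outside `A` is uniform and the subfamily indexed by `A` has
a packing/covering partition, then so does the whole family.
(2) Every family with at most one non-uniform member has a packing/covering partition. -/
theorem result {ι α : Type*} (E : Set α) (M : ι → Matroid α) (hE : ∀ i, (M i).E = E) :
    (∀ A : Set ι, (∀ i, i ∉ A → IsUniform (M i)) →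
      HasPackingCovering E (fun a : A => M a) → HasPackingCovering E M) ∧
    ((∀ i j, ¬ IsUniform (M i) → ¬ IsUniform (M j) → i = j) → HasPackingCovering E M) :=
  ⟨fun A hU hA => uniform_extension E M hE A hU hA, fun h => one_nonuniform E M hE h⟩

end Vale.Agent.Results.P068.UniformMembers
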